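import Mathlib

/-!
# P097, case [c], row A4.6-DENS : porosity against density

`S` an arbitrary set of a finite dimensional real normed space `E` with an additive Haar measure.
For almost every `e ∈ S` there is no sequence `r → 0+` of scales at which a ball of radius `c r`
with centre at distance `≤ C r` from `e` misses `S`.
-/

open MeasureTheory Measure Metric Set Filter Topology

namespace Vale.Agent.P097.H410

variable {E : Type*} [NormedAddCommGroup E] [NormedSpace ℝ E] [FiniteDimensional ℝ E]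
  [MeasurableSpace E] [BorelSpace E]

/-- one point of density `1` : balls `ball x (c r)`, `dist x e ≤ C r`, meet `S` for all small `r` -/
theorem meets_of_density {μ : Measure E} [IsAddHaarMeasure μ] {S : Set E} {e : E}
    (he : Tendsto (fun r => μ (S ∩ closedBall e r) / μ (closedBall e r)) (𝓝[>] 0) (𝓝 1))
    {c C : ℝ} (hc : 0 < c) (hC : 0 ≤ C) :
    ∀ᶠ r in 𝓝[>] (0 : ℝ), ∀ x, dist x e ≤ C * r → (ball x (c * r) ∩ S).Nonempty := by
  classical
  set K : ℝ := C + c with hK
  have hK0 : 0 < K := by positivity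
  -- rescale
  have hres : Tendsto (fun r : ℝ => K * r) (𝓝[>] 0) (𝓝[>] 0) := by
    refine tendsto_nhdsWithin_iff.2 ⟨?_, ?_⟩
    · have : Tendsto (fun r : ℝ => K * r) (𝓝 0) (𝓝 (K * 0)) := tendsto_id.const_mul K
      rw [mul_zero] at this
      exact this.mono_left nhdsWithin_le_nhds
    · filter_upwards [self_mem_nhdsWithin] with r hr
      exact mul_pos hK0 hr
  have h1 := he.comp hres
  -- the lost proportion
  set d := Module.finrank ℝ E with hd
  have hq : (1 : ENNReal) - ENNReal.ofReal ((c / K) ^ d) < 1 := by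
    refine ENNReal.sub_lt_self ENNReal.one_ne_top one_ne_zero ?_
    exact (ENNReal.ofReal_pos.2 (pow_pos (div_pos hc hK0) d)).ne'
  filter_upwards [h1.eventually (lt_mem_nhds hq), self_mem_nhdsWithin] with r hr hr0 x hx
  by_contra hne
  rw [Set.not_nonempty_iff_eq_empty] at hne
  have hr0' : 0 < r := hr0
  have hKr : 0 < K * r := mul_pos hK0 hr0'
  have hsub : ball x (c * r) ⊆ closedBall e (K * r) := by
    intro y hy
    rw [mem_ball] at hy
    rw [mem_closedBall]
    calc dist y e ≤ dist y x + dist x e := dist_triangle _ _ _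
      _ ≤ c * r + C * r := by linarith
      _ = K * r := by rw [hK]; ring
  have hmB : μ (closedBall e (K * r)) = ENNReal.ofReal ((K * r) ^ d) * μ (ball 0 1) :=
    addHaar_closedBall μ e hKr.le
  have hmb : μ (ball x (c * r)) = ENNReal.ofReal ((c * r) ^ d) * μ (ball 0 1) :=
    addHaar_ball_of_pos μ x (by positivity)
  have hb0 : μ (ball (0 : E) 1) ≠ 0 := (measure_ball_pos μ 0 one_pos).ne'
  have hbt : μ (ball (0 : E) 1) ≠ ⊤ := measure_ball_lt_top.ne
  have hS : S ∩ closedBall e (K * r) ⊆ closedBall e (K * r) \ ball x (c * r) := by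
    intro y hy
    refine ⟨hy.2, fun hyb => ?_⟩
    have : y ∈ ball x (c * r) ∩ S := ⟨hyb, hy.1⟩
    rw [hne] at this
    exact this
  have hle : μ (S ∩ closedBall e (K * r)) ≤ μ (closedBall e (K * r)) - μ (ball x (c * r)) := by
    refine (measure_mono hS).trans ?_
    rw [measure_sdiff hsub measurableSet_ball.nullMeasurableSet measure_ball_lt_top.ne]
  have hB0 : μ (closedBall e (K * r)) ≠ 0 := (measure_closedBall_pos μ e hKr).ne'
  have hBt : μ (closedBall e (K * r)) ≠ ⊤ := measure_closedBall_lt_top.ne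
  have hratio : μ (ball x (c * r)) / μ (closedBall e (K * r)) = ENNReal.ofReal ((c / K) ^ d) := by
    rw [hmB, hmb, ENNReal.mul_div_mul_right _ _ hb0 hbt, ← ENNReal.ofReal_div_of_pos (by positivity)]
    congr 1
    rw [← div_pow]
    congr 1
    field_simp
  have : μ (S ∩ closedBall e (K * r)) / μ (closedBall e (K * r)) ≤
      1 - ENNReal.ofReal ((c / K) ^ d) := by
    calc μ (S ∩ closedBall e (K * r)) / μ (closedBall e (K * r))
        ≤ (μ (closedBall e (K * r)) - μ (ball x (c * r))) / μ (closedBall e (K * r)) := by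
          gcongr
      _ = μ (closedBall e (K * r)) / μ (closedBall e (K * r)) -
            μ (ball x (c * r)) / μ (closedBall e (K * r)) := by
          rw [ENNReal.sub_div]
          intro _ _
          exact hB0
      _ = 1 - ENNReal.ofReal ((c / K) ^ d) := by
          rw [hratio, ENNReal.div_self hB0 hBt]
  exact absurd hr (not_lt.2 this)

/-- **porosity lemma** : for a.e. `e ∈ S`, for all `c > 0`, `C ≥ 0`, for all small `r > 0` every
ball of radius `c r` with centre at distance `≤ C r` from `e` meets `S` -/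
theorem ae_meets (μ : Measure E) [IsAddHaarMeasure μ] (S : Set E) :
    ∀ᵐ e ∂(μ.restrict S), ∀ c C : ℝ, 0 < c → 0 ≤ C →
      ∀ᶠ r in 𝓝[>] (0 : ℝ), ∀ x, dist x e ≤ C * r → (ball x (c * r) ∩ S).Nonempty := by
  filter_upwards [Besicovitch.ae_tendsto_measure_inter_div μ S] with e he c C hc hC
  exact meets_of_density he hc hC

/-- the form used in (A4) : if at every `e ∈ A` infinitely many scales carry a ball of relative
size `c` missing `S ⊇ A`, then `A` is null -/
theorem null_of_porous (μ : Measure E) [IsAddHaarMeasure μ] {A S : Set E} (hAS : A ⊆ S)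
    (h : ∀ e ∈ A, ∃ c C : ℝ, 0 < c ∧ 0 ≤ C ∧
      ∃ᶠ r in 𝓝[>] (0 : ℝ), ∃ x, dist x e ≤ C * r ∧ Disjoint (ball x (c * r)) S) : μ A = 0 := by
  have h1 := ae_meets μ S
  have h2 : ∀ᵐ e ∂(μ.restrict A), ∀ c C : ℝ, 0 < c → 0 ≤ C →
      ∀ᶠ r in 𝓝[>] (0 : ℝ), ∀ x, dist x e ≤ C * r → (ball x (c * r) ∩ S).Nonempty :=
    ae_mono (Measure.restrict_mono hAS le_rfl) h1
  have h3 : ∀ᵐ e ∂(μ.restrict A), e ∉ A := by
    filter_upwards [h2] with e he heA
    obtain ⟨c, C, hc, hC, hf⟩ := h e heA
    obtain ⟨r, ⟨x, hx, hd⟩, hm⟩ := (hf.and_eventually (he c C hc hC)).exists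
    obtain ⟨y, hy1, hy2⟩ := hm x hx
    exact (Set.disjoint_left.1 hd hy1) hy2
  have h4 : (μ.restrict A) A = 0 := by
    have := ae_iff.1 h3
    simpa using this
  rwa [Measure.restrict_apply_self] at h4

end Vale.Agent.P097.H410
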