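import Mathlib

/-!
# P097, case [c], rows A5.1 (thin layer) and A5.2 (transition windows) of 845 #14134

* `exists_continuousAt` : a lower semicontinuous function on a nonempty Baire space has a point of
  continuity (indeed a dense set of them: `dense_continuousAt`).
* `thick_core` : a closed set of positive measure contains a closed set of the same measure all of
  whose nonempty relatively open pieces have positive measure.
* `thin_layer` : the thin layer of 845 (1): `S` lower semicontinuous on `ℝ × ℝ`, `A` closed of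
  positive measure, `J` open and nonempty: there are `e` in `J × A` and `σ = S e` such that for
  every `δ > 0` there is a box round `e` with `S > σ - δ` on the whole box and `S < σ + δ` on the
  points of the box with label in `A`; every box carries a set of labels of `A` of positive measure.
* `transition` : transition windows at all small scales (intermediate values).
-/

open MeasureTheory Measure Metric Set Filter Topology

namespace Vale.Agent.P097.H410

/-! ### continuity points of semicontinuous functions -/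

section Baire

variable {X γ : Type*} [TopologicalSpace X] [LinearOrder γ] [TopologicalSpace γ] [OrderTopology γ]
  [DenselyOrdered γ]

theorem continuousAt_of_not_frontier {f : X → γ} (hf : LowerSemicontinuous f) {D : Set γ}
    (hD : Dense D) {x : X} (hx : ∀ d ∈ D, x ∉ frontier {z | f z ≤ d}) : ContinuousAt f x := by
  rw [ContinuousAt, tendsto_order]
  refine ⟨fun a ha => hf x a ha, fun b hb => ?_⟩
  obtain ⟨d, hd, h1, h2⟩ := hD.exists_between hb
  have hx1 : x ∈ {z | f z ≤ d} := h1.le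
  have hint : x ∈ interior {z | f z ≤ d} := by
    by_contra hni
    exact hx d hd ⟨subset_closure hx1, hni⟩
  filter_upwards [mem_interior_iff_mem_nhds.1 hint] with z hz
  exact lt_of_le_of_lt hz h2

/-- the points of continuity of a lower semicontinuous function on a Baire space are dense -/
theorem dense_continuousAt [TopologicalSpace.SeparableSpace γ] [BaireSpace X] {f : X → γ} (hf : LowerSemicontinuous f) :
    Dense {x | ContinuousAt f x} := by
  obtain ⟨D, hDc, hD⟩ := TopologicalSpace.exists_countable_dense γ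
  have h1 : Dense (⋂ d ∈ D, (frontier {z | f z ≤ d})ᶜ) := by
    refine dense_biInter_of_isOpen (fun d _ => isClosed_frontier.isOpen_compl) hDc fun d _ => ?_
    have hcl : IsClosed {z | f z ≤ d} := by
      have := hf.isClosed_preimage d
      exact this
    rw [← interior_eq_empty_iff_dense_compl]
    exact interior_frontier hcl
  refine h1.mono fun x hx => ?_
  refine continuousAt_of_not_frontier hf hD fun d hd => ?_
  exact mem_iInter₂.1 hx d hd

theorem exists_continuousAt [TopologicalSpace.SeparableSpace γ] [BaireSpace X] [Nonempty X] {f : X → γ}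
    (hf : LowerSemicontinuous f) : ∃ x, ContinuousAt f x := by
  obtain ⟨x, hx⟩ := (dense_continuousAt hf).nonempty
  exact ⟨x, hx⟩

end Baire

/-! ### the thick core of a closed set of labels -/

/-- `A` without its portions of measure zero -/
def core (A : Set ℝ) : Set ℝ := {u | u ∈ A ∧ ∀ η > 0, 0 < volume (A ∩ ball u η)}

theorem core_subset (A : Set ℝ) : core A ⊆ A := fun _ h => h.1

theorem volume_diff_core (A : Set ℝ) : volume (A \ core A) = 0 := by
  refine measure_null_of_locally_null _ fun u hu => ?_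
  have hu2 : ¬ ∀ η > 0, 0 < volume (A ∩ ball u η) := fun h => hu.2 ⟨hu.1, h⟩
  push Not at hu2
  obtain ⟨η, hη, h0⟩ := hu2
  refine ⟨(A \ core A) ∩ ball u η, inter_mem_nhdsWithin _ (ball_mem_nhds u hη), ?_⟩
  refine measure_mono_null ?_ (le_antisymm h0 bot_le)
  exact inter_subset_inter_left _ sdiff_subset

theorem isClosed_core {A : Set ℝ} (hA : IsClosed A) : IsClosed (core A) := by
  rw [← isSeqClosed_iff_isClosed]
  intro x u hx hu
  refine ⟨hA.mem_of_tendsto hu (Eventually.of_forall fun n => (hx n).1), fun η hη => ?_⟩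
  obtain ⟨n, hn⟩ := (hu.eventually (ball_mem_nhds u (half_pos hη))).exists
  refine lt_of_lt_of_le ((hx n).2 (η / 2) (half_pos hη)) (measure_mono ?_)
  refine inter_subset_inter_right _ fun z hz => ?_
  rw [mem_ball] at hz ⊢
  calc dist z u ≤ dist z (x n) + dist (x n) u := dist_triangle _ _ _
    _ < η / 2 + η / 2 := add_lt_add hz hn
    _ = η := add_halves η

theorem volume_core_inter (A B : Set ℝ) : volume (core A ∩ B) = volume (A ∩ B) := by
  refine le_antisymm (measure_mono (inter_subset_inter_left _ (core_subset A))) ?_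
  have : A ∩ B ⊆ (core A ∩ B) ∪ (A \ core A) := by
    intro u hu
    by_cases h : u ∈ core A
    · exact Or.inl ⟨h, hu.2⟩
    · exact Or.inr ⟨hu.1, h⟩
  calc volume (A ∩ B) ≤ volume (core A ∩ B) + volume (A \ core A) :=
        (measure_mono this).trans (measure_union_le _ _)
    _ = volume (core A ∩ B) := by rw [volume_diff_core, add_zero]

/-- every closed set of positive measure has a closed subset of full measure in it, all of whose
nonempty relatively open pieces have positive measure -/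
theorem thick_core {A : Set ℝ} (hA : IsClosed A) (h0 : 0 < volume A) :
    ∃ A' ⊆ A, IsClosed A' ∧ A'.Nonempty ∧ volume (A \ A') = 0 ∧
      ∀ u ∈ A', ∀ η > 0, 0 < volume (A' ∩ ball u η) := by
  refine ⟨core A, core_subset A, isClosed_core hA, ?_, volume_diff_core A, fun u hu η hη => ?_⟩
  · by_contra hne
    rw [Set.not_nonempty_iff_eq_empty] at hne
    have := volume_diff_core A
    rw [hne, sdiff_empty] at this
    exact h0.ne' this
  · rw [volume_core_inter]
    exact hu.2 η hη

/-! ### the thin layer -/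

/-- **thin layer** (845 (1)). Real valued form. -/
theorem thin_layer {S : ℝ → ℝ → ℝ} (hS : LowerSemicontinuous fun p : ℝ × ℝ => S p.1 p.2)
    {J : Set ℝ} (hJ : IsOpen J) (hJne : J.Nonempty) {A : Set ℝ} (hA : IsClosed A)
    (hAp : ∀ u ∈ A, ∀ η > 0, 0 < volume (A ∩ ball u η)) (hAne : A.Nonempty) :
    ∃ yc ∈ J, ∃ uc ∈ A, ∀ δ > 0, ∃ η > 0, ball yc η ⊆ J ∧ 0 < volume (A ∩ ball uc η) ∧
      (∀ y ∈ ball yc η, ∀ u ∈ ball uc η, S yc uc - δ < S y u) ∧
      (∀ y ∈ ball yc η, ∀ u ∈ ball uc η, u ∈ A → S y u < S yc uc + δ) := by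
  have hlc : BaireSpace (J ×ˢ A : Set (ℝ × ℝ)) := by
    have h1 : IsLocallyClosed (J ×ˢ A : Set (ℝ × ℝ)) := by
      have : (J ×ˢ A : Set (ℝ × ℝ)) = (J ×ˢ univ) ∩ (univ ×ˢ A) := by
        ext p; simp
      rw [this]
      exact ((hJ.prod isOpen_univ).isLocallyClosed).inter
        ((isClosed_univ.prod hA).isLocallyClosed)
    have := h1.locallyCompactSpace
    infer_instance
  have hne : Nonempty (J ×ˢ A : Set (ℝ × ℝ)) := by
    obtain ⟨y, hy⟩ := hJne
    obtain ⟨u, hu⟩ := hAne
    exact ⟨⟨(y, u), hy, hu⟩⟩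
  have hf : LowerSemicontinuous fun p : (J ×ˢ A : Set (ℝ × ℝ)) => S p.1.1 p.1.2 :=
    hS.comp continuous_subtype_val
  obtain ⟨⟨⟨yc, uc⟩, hyc, huc⟩, hc⟩ := exists_continuousAt hf
  refine ⟨yc, hyc, uc, huc, fun δ hδ => ?_⟩
  have h1 : ∀ᶠ p : ℝ × ℝ in 𝓝 (yc, uc), S yc uc - δ < S p.1 p.2 :=
    hS (yc, uc) _ (by show S yc uc - δ < S yc uc; linarith)
  have h2 : ∀ᶠ p : (J ×ˢ A : Set (ℝ × ℝ)) in 𝓝 ⟨(yc, uc), hyc, huc⟩,
      S p.1.1 p.1.2 < S yc uc + δ := by
    have : S (⟨(yc, uc), hyc, huc⟩ : (J ×ˢ A : Set (ℝ × ℝ))).1.1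
      (⟨(yc, uc), hyc, huc⟩ : (J ×ˢ A : Set (ℝ × ℝ))).1.2 < S yc uc + δ := by
      show S yc uc < S yc uc + δ
      linarith
    exact hc.eventually_lt_const this
  obtain ⟨η1, hη1, H1⟩ := Metric.eventually_nhds_iff.1 h1
  obtain ⟨η2, hη2, H2⟩ := Metric.eventually_nhds_iff.1 h2
  obtain ⟨η3, hη3, H3⟩ := Metric.isOpen_iff.1 hJ yc hyc
  refine ⟨min η1 (min η2 η3), lt_min hη1 (lt_min hη2 hη3), ?_, hAp uc huc _ (lt_min hη1 (lt_min
    hη2 hη3)), ?_, ?_⟩
  · exact (ball_subset_ball ((min_le_right _ _).trans (min_le_right _ _))).trans H3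
  · intro y hy u hu
    refine H1 (y := (y, u)) ?_
    rw [Prod.dist_eq]
    exact max_lt (lt_of_lt_of_le hy (min_le_left _ _)) (lt_of_lt_of_le hu (min_le_left _ _))
  · intro y hy u hu huA
    have hyJ : y ∈ J := H3 (ball_subset_ball ((min_le_right _ _).trans (min_le_right _ _)) hy)
    refine H2 (y := ⟨(y, u), hyJ, huA⟩) ?_
    show dist (y, u) (yc, uc) < η2
    rw [Prod.dist_eq]
    exact max_lt (lt_of_lt_of_le hy ((min_le_right _ _).trans (min_le_left _ _)))
      (lt_of_lt_of_le hu ((min_le_right _ _).trans (min_le_left _ _)))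

/-- **thin layer**, extended real valued form (slopes in `[-∞, ∞]`, finite on the layer) -/
theorem thin_layer' {S : ℝ → ℝ → EReal} (hS : LowerSemicontinuous fun p : ℝ × ℝ => S p.1 p.2)
    {J : Set ℝ} (hJ : IsOpen J) (hJne : J.Nonempty) {A : Set ℝ} (hA : IsClosed A)
    (hAp : ∀ u ∈ A, ∀ η > 0, 0 < volume (A ∩ ball u η)) (hAne : A.Nonempty) :
    ∃ yc ∈ J, ∃ uc ∈ A, (∀ a < S yc uc, ∃ η > 0, ball yc η ⊆ J ∧
        ∀ y ∈ ball yc η, ∀ u ∈ ball uc η, a < S y u) ∧
      (∀ b > S yc uc, ∃ η > 0, ball yc η ⊆ J ∧ 0 < volume (A ∩ ball uc η) ∧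
        ∀ y ∈ ball yc η, ∀ u ∈ ball uc η, u ∈ A → S y u < b) := by
  have hlc : BaireSpace (J ×ˢ A : Set (ℝ × ℝ)) := by
    have h1 : IsLocallyClosed (J ×ˢ A : Set (ℝ × ℝ)) := by
      have : (J ×ˢ A : Set (ℝ × ℝ)) = (J ×ˢ univ) ∩ (univ ×ˢ A) := by
        ext p; simp
      rw [this]
      exact ((hJ.prod isOpen_univ).isLocallyClosed).inter
        ((isClosed_univ.prod hA).isLocallyClosed)
    have := h1.locallyCompactSpace
    infer_instance
  have hne : Nonempty (J ×ˢ A : Set (ℝ × ℝ)) := by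
    obtain ⟨y, hy⟩ := hJne
    obtain ⟨u, hu⟩ := hAne
    exact ⟨⟨(y, u), hy, hu⟩⟩
  have hf : LowerSemicontinuous fun p : (J ×ˢ A : Set (ℝ × ℝ)) => S p.1.1 p.1.2 :=
    hS.comp continuous_subtype_val
  obtain ⟨⟨⟨yc, uc⟩, hyc, huc⟩, hc⟩ := exists_continuousAt hf
  obtain ⟨η3, hη3, H3⟩ := Metric.isOpen_iff.1 hJ yc hyc
  refine ⟨yc, hyc, uc, huc, fun a ha => ?_, fun b hb => ?_⟩
  · obtain ⟨η1, hη1, H1⟩ := Metric.eventually_nhds_iff.1 (hS (yc, uc) a ha)
    refine ⟨min η1 η3, lt_min hη1 hη3, (ball_subset_ball (min_le_right _ _)).trans H3, ?_⟩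
    intro y hy u hu
    refine H1 (y := (y, u)) ?_
    rw [Prod.dist_eq]
    exact max_lt (lt_of_lt_of_le hy (min_le_left _ _)) (lt_of_lt_of_le hu (min_le_left _ _))
  · have h2 : ∀ᶠ p : (J ×ˢ A : Set (ℝ × ℝ)) in 𝓝 ⟨(yc, uc), hyc, huc⟩, S p.1.1 p.1.2 < b :=
      hc.eventually_lt_const hb
    obtain ⟨η2, hη2, H2⟩ := Metric.eventually_nhds_iff.1 h2
    refine ⟨min η2 η3, lt_min hη2 hη3, (ball_subset_ball (min_le_right _ _)).trans H3,
      hAp uc huc _ (lt_min hη2 hη3), ?_⟩
    intro y hy u hu huA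
    have hyJ : y ∈ J := H3 (ball_subset_ball (min_le_right _ _) hy)
    refine H2 (y := ⟨(y, u), hyJ, huA⟩) ?_
    show dist (y, u) (yc, uc) < η2
    rw [Prod.dist_eq]
    exact max_lt (lt_of_lt_of_le hy (min_le_left _ _)) (lt_of_lt_of_le hu (min_le_left _ _))

/-! ### transition windows -/

/-- **transitions at all small scales** (845 (2)): `V` continuous on the open strip portion below
the height `h`, `V > c` near the foot `y₁`, `V < c` near the foot `y₂`: on every horizontal segment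
just below `h` there is a point with `V = c` -/
theorem transition {V : ℂ → ℝ} {y₁ y₂ h r₀ c : ℝ} (hr₀ : 0 < r₀)
    (hV : ContinuousOn V {t | t.re ∈ uIcc y₁ y₂ ∧ h - r₀ < t.im ∧ t.im < h})
    (h1 : ∀ᶠ r in 𝓝[>] (0 : ℝ), c < V (y₁ + (h - r : ℝ) * Complex.I))
    (h2 : ∀ᶠ r in 𝓝[>] (0 : ℝ), V (y₂ + (h - r : ℝ) * Complex.I) < c) :
    ∀ᶠ r in 𝓝[>] (0 : ℝ), ∃ y ∈ uIcc y₁ y₂, V (y + (h - r : ℝ) * Complex.I) = c := by
  filter_upwards [h1, h2, Ioo_mem_nhdsGT hr₀] with r ha hb hr
  have hc : ContinuousOn (fun y : ℝ => V ((y : ℂ) + (h - r : ℝ) * Complex.I)) (uIcc y₁ y₂) := by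
    refine hV.comp (by fun_prop) fun y hy => ?_
    refine ⟨by simpa using hy, ?_, ?_⟩
    · simp only [Complex.add_im, Complex.ofReal_im, Complex.mul_im, Complex.ofReal_re,
        Complex.I_im, mul_one, Complex.I_re, mul_zero, add_zero, zero_add]
      linarith [hr.2]
    · simp only [Complex.add_im, Complex.ofReal_im, Complex.mul_im, Complex.ofReal_re,
        Complex.I_im, mul_one, Complex.I_re, mul_zero, add_zero, zero_add]
      linarith [hr.1]
  have := intermediate_value_uIcc hc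
  have hmem : c ∈ uIcc (V ((y₁ : ℂ) + (h - r : ℝ) * Complex.I))
      (V ((y₂ : ℂ) + (h - r : ℝ) * Complex.I)) :=
    mem_uIcc_of_ge hb.le ha.le
  obtain ⟨y, hy, hyc⟩ := this hmem
  exact ⟨y, hy, hyc⟩

end Vale.Agent.P097.H410
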